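import Mathlib
import Vale.Agent.P121.Defs
import Vale.Agent.P121.Lower

open scoped ENNReal NNReal
open MeasureTheory Vale.Agent.P121

namespace Vale.Agent.Results.P121.Main

/-- In every dimension `d ≥ 2` (in particular for `d = 3`) there is a Borel probability measure
`μ` on `ℝ^d`, absolutely continuous with bounded density and with compact support, whose
Kantorovich value for the three-particle Coulomb cost is finite, and which admits no optimal
Monge plan. -/
theorem result (d : ℕ) (hd : 2 ≤ d) :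
    ∃ μ : Measure (EuclideanSpace ℝ (Fin d)),
      IsProbabilityMeasure μ ∧
      μ ≪ volume ∧
      (∃ C : ℝ≥0, μ ≤ (C : ℝ≥0∞) • volume) ∧
      (∃ S : Set (EuclideanSpace ℝ (Fin d)), IsCompact S ∧ μ Sᶜ = 0) ∧
      kantorovichValue μ < ∞ ∧
      ¬ HasOptimalMongePlan μ := by
  have h0 : 0 < d := by omega
  have h1 : 1 < d := by omega
  let e : Bool → EuclideanSpace ℝ (Fin d) := fun i =>
    if i then EuclideanSpace.single ⟨1, h1⟩ (1 : ℝ) else EuclideanSpace.single ⟨0, h0⟩ (1 : ℝ)
  have he : ∀ i, ‖e i‖ = 1 := by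
    intro i
    cases i <;> simp [e]
  have ho : inner ℝ (e false) (e true) = 0 := by
    simp only [e]
    simp [EuclideanSpace.inner_single_left]
  obtain ⟨K⟩ := exists_config e he ho
  obtain ⟨U, hUm, hU⟩ := K.exists_pot
  obtain ⟨C, hC⟩ := K.mu_le
  refine ⟨K.mu, inferInstance, ?_, ⟨C, hC⟩, ⟨K.S, K.isCompact_S, ?_⟩, ?_, K.no_monge⟩
  · refine Measure.AbsolutelyContinuous.mk fun t _ ht => ?_
    have h := hC t
    rw [Measure.smul_apply, ht, smul_zero] at h
    exact le_antisymm h zero_le
  · exact K.ae_mu_mem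
  · calc kantorovichValue K.mu ≤ 3 * ∫⁻ x, ENNReal.ofReal (U x) ∂K.mu := K.kant_le hUm hU
      _ < ∞ := ENNReal.mul_lt_top (by norm_num) (K.lint_pot_lt_top hU)

end Vale.Agent.Results.P121.Main
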